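import Vale.Agent.P130.Limit

open MeasureTheory

theorem Vale.Agent.Results.P130.Full.result :
    ∃ (X : Type) (_ : MeasurableSpace X) (_ : StandardBorelSpace X) (μ : Measure X)
      (T : X ≃ᵐ X) (f : X → ℂ) (F : ℤ → Lp ℂ 2 μ),
      IsProbabilityMeasure μ ∧ (∀ x, μ {x} = 0) ∧ MeasurePreserving T μ μ ∧
      (∀ n : ℤ, (F n : X → ℂ) =ᵐ[μ] f ∘ (T.toEquiv ^ n : Equiv.Perm X)) ∧
      Orthonormal ℂ F ∧
      ((Submodule.span ℂ (Set.range F)).topologicalClosure : Set (Lp ℂ 2 μ)) =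
        {g : Lp ℂ 2 μ | ∫ x, g x ∂μ = 0} := by
  obtain ⟨D⟩ := Vale.Agent.P130.exists_data
  refine ⟨Vale.Agent.P130.Om, inferInstance, inferInstance, D.mu, Vale.Agent.P130.shE,
    D.exists_F.choose, D.F, inferInstance, D.mu_single, D.mp_sh 1, fun n => ?_, D.orthonormal_F,
    D.V_eq⟩
  rw [Vale.Agent.P130.shE_zpow]
  exact Vale.Agent.P130.cmp_ae (D.mp_sh n) _
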